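/-
helper311: the pair lemma (probability-free form of: two labels through one Brownian path).
Two pairs of holomorphic functions `(f₁,h₁)` on `U₁`, `(f₂,h₂)` on `U₂`, and functions
`qᵢ = Re Gᵢ ≤ 1`. On the analytic curve `V = {f₁ t = f₂ t', q₁ t ≥ 0, q₂ t' ≥ 0}` the difference
`h₁ t - h₂ t'` is bounded by `C` and tends to `0` when `(t,t')` leaves the compact subsets of
`U₁ × U₂`. Then `h₁ t₀ = h₂ t₀'` at every point of `V` with `q₁ t₀ + q₂ t₀' > 1`, `f₁' t₀ ≠ 0`.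
-/
import Mathlib

open Complex Set Filter Topology Metric

namespace Vale.Agent.P097.H311.UQ

theorem pair {U₁ U₂ : Set ℂ} (hU₁ : IsOpen U₁) (hU₂ : IsOpen U₂)
    {f₁ f₂ h₁ h₂ G₁ G₂ : ℂ → ℂ}
    (hf₁ : AnalyticOnNhd ℂ f₁ U₁) (hf₂ : AnalyticOnNhd ℂ f₂ U₂)
    (hh₁ : AnalyticOnNhd ℂ h₁ U₁) (hh₂ : AnalyticOnNhd ℂ h₂ U₂)
    (hG₁ : AnalyticOnNhd ℂ G₁ U₁) (hG₂ : AnalyticOnNhd ℂ G₂ U₂)
    (hq₁ : ∀ t ∈ U₁, (G₁ t).re ≤ 1) (hq₂ : ∀ t ∈ U₂, (G₂ t).re ≤ 1)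
    {C : ℝ} (hC : 0 < C)
    (hCb : ∀ t ∈ U₁, ∀ t' ∈ U₂, f₁ t = f₂ t' → 0 ≤ (G₁ t).re → 0 ≤ (G₂ t').re →
      ‖h₁ t - h₂ t'‖ ≤ C)
    (hK : ∀ ε > 0, ∃ K ⊆ U₁ ×ˢ U₂, IsCompact K ∧ ∀ t ∈ U₁, ∀ t' ∈ U₂, f₁ t = f₂ t' →
      0 ≤ (G₁ t).re → 0 ≤ (G₂ t').re → (t, t') ∉ K → ‖h₁ t - h₂ t'‖ < ε)
    {t₀ t₀' : ℂ} (ht₀ : t₀ ∈ U₁) (ht₀' : t₀' ∈ U₂) (h0 : f₁ t₀ = f₂ t₀')
    (hd : deriv f₁ t₀ ≠ 0) (hq : 1 < (G₁ t₀).re + (G₂ t₀').re) : h₁ t₀ = h₂ t₀' := by
  by_contra hne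
  have hD : 0 < ‖h₁ t₀ - h₂ t₀'‖ := norm_pos_iff.mpr (sub_ne_zero.mpr hne)
  have hq10 : 0 ≤ (G₁ t₀).re := by linarith [hq₂ t₀' ht₀']
  have hq20 : 0 ≤ (G₂ t₀').re := by linarith [hq₁ t₀ ht₀]
  set c : ℝ := (G₁ t₀).re + (G₂ t₀').re - 1 with hc
  have hcpos : 0 < c := by rw [hc]; linarith
  -- choice of `N`
  obtain ⟨N, hN⟩ : ∃ N : ℕ, C / ‖h₁ t₀ - h₂ t₀'‖ < Real.exp (N * c) := by
    obtain ⟨N, hN⟩ := exists_nat_gt ((C / ‖h₁ t₀ - h₂ t₀'‖) / c)
    refine ⟨N, ?_⟩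
    have h1 : C / ‖h₁ t₀ - h₂ t₀'‖ < N * c := by
      rwa [div_lt_iff₀ hcpos] at hN
    linarith [Real.add_one_le_exp ((N : ℝ) * c)]
  -- the first analytic function
  let A : ℂ × ℂ → ℂ := fun p => Complex.exp (N * (G₁ p.1 + G₂ p.2 - 1)) * (h₁ p.1 - h₂ p.2) / C
  have hAnorm : ∀ p : ℂ × ℂ, ‖A p‖ =
      Real.exp (N * ((G₁ p.1).re + (G₂ p.2).re - 1)) * ‖h₁ p.1 - h₂ p.2‖ / C := by
    intro p
    simp only [A, norm_div, norm_mul, Complex.norm_exp, Complex.norm_real, Real.norm_eq_abs,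
      abs_of_pos hC]
    congr 3
    simp
  have hA0 : 1 < ‖A (t₀, t₀')‖ := by
    rw [hAnorm]
    simp only
    rw [← hc, lt_div_iff₀ hC, one_mul]
    rwa [div_lt_iff₀ hD] at hN
  obtain ⟨K, hKU, hKc, hKout⟩ := hK (C * Real.exp (-N)) (by positivity)
  -- outside `K` the function `A` is small
  have hAout : ∀ t ∈ U₁, ∀ t' ∈ U₂, f₁ t = f₂ t' → 0 ≤ (G₁ t).re → 0 ≤ (G₂ t').re →
      (t, t') ∉ K → ‖A (t, t')‖ ≤ 1 := by
    intro t ht t' ht' hft h1 h2 hnot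
    have h3 := hKout t ht t' ht' hft h1 h2 hnot
    rw [hAnorm]
    simp only
    rw [div_le_iff₀ hC, one_mul]
    have h4 : Real.exp (N * ((G₁ t).re + (G₂ t').re - 1)) ≤ Real.exp N := by
      apply Real.exp_le_exp.mpr
      have : (G₁ t).re + (G₂ t').re - 1 ≤ 1 := by linarith [hq₁ t ht, hq₂ t' ht']
      nlinarith [(Nat.cast_nonneg N : (0:ℝ) ≤ N)]
    calc Real.exp (N * ((G₁ t).re + (G₂ t').re - 1)) * ‖h₁ t - h₂ t'‖
        ≤ Real.exp N * (C * Real.exp (-N)) :=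
          mul_le_mul h4 h3.le (norm_nonneg _) (Real.exp_pos _).le
      _ = C * (Real.exp N * Real.exp (-N)) := by ring
      _ = C := by rw [← Real.exp_add]; simp
  have hp0K : (t₀, t₀') ∈ K := by
    by_contra hnot
    exact absurd (hAout t₀ ht₀ t₀' ht₀' h0 hq10 hq20 hnot) (not_le.mpr hA0)
  -- a compact neighbourhood of `K`
  obtain ⟨K', hK'c, hKK', hK'U⟩ := exists_compact_between hKc (hU₁.prod hU₂) hKU
  have hf₁' : AnalyticOnNhd ℂ (deriv f₁) U₁ := hf₁.deriv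
  obtain ⟨M, hM⟩ : ∃ M : ℝ, ∀ p ∈ K', ‖deriv f₁ p.1‖ ≤ M := by
    apply hK'c.exists_bound_of_continuousOn
    exact hf₁'.continuousOn.comp continuous_fst.continuousOn (fun p hp => (hK'U hp).1)
  have hMpos : 0 < M := lt_of_lt_of_le (norm_pos_iff.mpr hd) (hM _ (interior_subset (hKK' hp0K)))
  -- choice of `m`
  obtain ⟨m, hm⟩ : ∃ m : ℕ, M / ‖deriv f₁ t₀‖ < ‖A (t₀, t₀')‖ ^ m :=
    pow_unbounded_of_one_lt _ hA0
  let P : ℂ × ℂ → ℂ := fun p => A p ^ m * (deriv f₁ p.1 / M)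
  have hPnorm : ∀ p : ℂ × ℂ, ‖P p‖ = ‖A p‖ ^ m * (‖deriv f₁ p.1‖ / M) := by
    intro p
    simp only [P, norm_mul, norm_pow, norm_div, Complex.norm_real, Real.norm_eq_abs,
      abs_of_pos hMpos]
  have hP0 : 1 < ‖P (t₀, t₀')‖ := by
    rw [hPnorm]
    have hd' : 0 < ‖deriv f₁ t₀‖ := norm_pos_iff.mpr hd
    rw [div_lt_iff₀ hd'] at hm
    rw [← mul_div_assoc, lt_div_iff₀ hMpos, one_mul]
    exact hm
  have hPA : ∀ p ∈ K', ‖P p‖ ≤ ‖A p‖ ^ m := by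
    intro p hp
    rw [hPnorm]
    have : ‖deriv f₁ p.1‖ / M ≤ 1 := (div_le_one hMpos).mpr (hM p hp)
    calc ‖A p‖ ^ m * (‖deriv f₁ p.1‖ / M) ≤ ‖A p‖ ^ m * 1 :=
          mul_le_mul_of_nonneg_left this (by positivity)
      _ = _ := mul_one _
  -- continuity
  have hc1 : ContinuousOn (fun p : ℂ × ℂ => G₁ p.1) K :=
    hG₁.continuousOn.comp continuous_fst.continuousOn (fun p hp => (hKU hp).1)
  have hc2 : ContinuousOn (fun p : ℂ × ℂ => G₂ p.2) K :=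
    hG₂.continuousOn.comp continuous_snd.continuousOn (fun p hp => (hKU hp).2)
  have hc3 : ContinuousOn (fun p : ℂ × ℂ => f₁ p.1) K :=
    hf₁.continuousOn.comp continuous_fst.continuousOn (fun p hp => (hKU hp).1)
  have hc4 : ContinuousOn (fun p : ℂ × ℂ => f₂ p.2) K :=
    hf₂.continuousOn.comp continuous_snd.continuousOn (fun p hp => (hKU hp).2)
  have hc5 : ContinuousOn (fun p : ℂ × ℂ => h₁ p.1) K :=
    hh₁.continuousOn.comp continuous_fst.continuousOn (fun p hp => (hKU hp).1)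
  have hc6 : ContinuousOn (fun p : ℂ × ℂ => h₂ p.2) K :=
    hh₂.continuousOn.comp continuous_snd.continuousOn (fun p hp => (hKU hp).2)
  have hc7 : ContinuousOn (fun p : ℂ × ℂ => deriv f₁ p.1) K :=
    hf₁'.continuousOn.comp continuous_fst.continuousOn (fun p hp => (hKU hp).1)
  have hPc : ContinuousOn (fun p => ‖P p‖) K := by
    apply ContinuousOn.norm
    apply ContinuousOn.mul
    · apply ContinuousOn.pow
      apply ContinuousOn.div_const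
      apply ContinuousOn.mul
      · apply ContinuousOn.cexp
        exact continuousOn_const.mul ((hc1.add hc2).sub continuousOn_const)
      · exact hc5.sub hc6
    · exact hc7.div_const _
  -- the compact set `S`
  let S : Set (ℂ × ℂ) := {p | p ∈ K ∧ f₁ p.1 = f₂ p.2 ∧ 0 ≤ (G₁ p.1).re ∧ 0 ≤ (G₂ p.2).re}
  have hSK : S ⊆ K := fun p hp => hp.1
  have hSc : IsCompact S := by
    have e : S = K ∩ (K ∩ {p | (fun p : ℂ × ℂ => f₁ p.1 - f₂ p.2) p ∈ ({0} : Set ℂ)}) ∩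
        (K ∩ {p | (fun p : ℂ × ℂ => (G₁ p.1).re) p ∈ Set.Ici (0 : ℝ)}) ∩
        (K ∩ {p | (fun p : ℂ × ℂ => (G₂ p.2).re) p ∈ Set.Ici (0 : ℝ)}) := by
      ext p
      simp only [S, mem_ofPred_eq, mem_inter_iff, mem_singleton_iff, sub_eq_zero, mem_Ici]
      tauto
    rw [e]
    have k1 : IsClosed (K ∩ {p | (fun p : ℂ × ℂ => f₁ p.1 - f₂ p.2) p ∈ ({0} : Set ℂ)}) :=
      (hc3.sub hc4).preimage_isClosed_of_isClosed hKc.isClosed isClosed_singleton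
    have k2 : IsClosed (K ∩ {p | (fun p : ℂ × ℂ => (G₁ p.1).re) p ∈ Set.Ici (0 : ℝ)}) :=
      (Complex.continuous_re.comp_continuousOn hc1).preimage_isClosed_of_isClosed hKc.isClosed
        isClosed_Ici
    have k3 : IsClosed (K ∩ {p | (fun p : ℂ × ℂ => (G₂ p.2).re) p ∈ Set.Ici (0 : ℝ)}) :=
      (Complex.continuous_re.comp_continuousOn hc2).preimage_isClosed_of_isClosed hKc.isClosed
        isClosed_Ici
    exact ((hKc.inter_right k1).inter_right k2).inter_right k3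
  have hp0S : (t₀, t₀') ∈ S := ⟨hp0K, h0, hq10, hq20⟩
  obtain ⟨p₁, hp₁S, hp₁max⟩ := hSc.exists_isMaxOn ⟨_, hp0S⟩ (hPc.mono hSK)
  have hp₁1 : 1 < ‖P p₁‖ := lt_of_lt_of_le hP0 (hp₁max hp0S)
  -- among the maximizers take the one with the largest real part of the second coordinate
  let T : Set (ℂ × ℂ) := S ∩ {p | ‖P p‖ ∈ ({‖P p₁‖} : Set ℝ)}
  have hTc : IsCompact T := by
    apply hSc.of_isClosed_subset _ inter_subset_left
    exact (hPc.mono hSK).preimage_isClosed_of_isClosed hSc.isClosed isClosed_singleton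
  obtain ⟨p, hpT, hpmax⟩ := hTc.exists_isMaxOn ⟨p₁, hp₁S, rfl⟩
    ((Complex.continuous_re.comp continuous_snd).continuousOn (s := T))
  obtain ⟨hpS, hpv⟩ := hpT
  have hpv : ‖P p‖ = ‖P p₁‖ := hpv
  obtain ⟨hpK, hpf, hpq1, hpq2⟩ := hpS
  have hp1 : 1 < ‖P p‖ := by rw [hpv]; exact hp₁1
  have hpU := hKU hpK
  -- consequences at `p`
  have hdp : deriv f₁ p.1 ≠ 0 := by
    intro h
    rw [hPnorm, h] at hp1
    simp at hp1
    linarith
  have hA1 : 1 < ‖A p‖ := by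
    by_contra hle
    push Not at hle
    have := hPA p (interior_subset (hKK' hpK))
    have h2 : ‖A p‖ ^ m ≤ 1 := pow_le_one₀ (norm_nonneg _) hle
    linarith
  have hqs : 1 < (G₁ p.1).re + (G₂ p.2).re := by
    by_contra hle
    push Not at hle
    have h2 := hCb p.1 hpU.1 p.2 hpU.2 hpf hpq1 hpq2
    rw [hAnorm, lt_div_iff₀ hC, one_mul] at hA1
    have h3 : Real.exp (N * ((G₁ p.1).re + (G₂ p.2).re - 1)) ≤ 1 := by
      rw [Real.exp_le_one_iff]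
      nlinarith [(Nat.cast_nonneg N : (0:ℝ) ≤ N)]
    have h4 : Real.exp (N * ((G₁ p.1).re + (G₂ p.2).re - 1)) * ‖h₁ p.1 - h₂ p.2‖ ≤ 1 * C :=
      mul_le_mul h3 h2 (norm_nonneg _) zero_le_one
    linarith
  have hq1 : 0 < (G₁ p.1).re := by linarith [hq₂ p.2 hpU.2]
  have hq2 : 0 < (G₂ p.2).re := by linarith [hq₁ p.1 hpU.1]
  -- the local parametrization
  have haf : AnalyticAt ℂ f₁ p.1 := hf₁ p.1 hpU.1
  let r : ℂ → ℂ := haf.hasStrictDerivAt.localInverse _ _ _ hdp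
  have hra : AnalyticAt ℂ r (f₁ p.1) := haf.analyticAt_localInverse hdp
  have hrp : r (f₁ p.1) = p.1 := HasStrictFDerivAt.localInverse_apply_image ..
  have hrinv : ∀ᶠ x in 𝓝 (f₁ p.1), f₁ (r x) = x := HasStrictDerivAt.eventually_right_inverse ..
  let g : ℂ → ℂ := fun s => r (f₂ s)
  have haf2 : AnalyticAt ℂ f₂ p.2 := hf₂ p.2 hpU.2
  have hga : AnalyticAt ℂ g p.2 := by
    have : AnalyticAt ℂ r (f₂ p.2) := by rw [← hpf]; exact hra
    exact this.comp haf2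
  have hgp : g p.2 = p.1 := by simp only [g]; rw [← hpf]; exact hrp
  have hgf : ∀ᶠ s in 𝓝 p.2, f₁ (g s) = f₂ s := by
    have h1 : Tendsto f₂ (𝓝 p.2) (𝓝 (f₁ p.1)) := by rw [hpf]; exact haf2.continuousAt
    exact h1.eventually hrinv
  have hpair : ContinuousAt (fun s => (g s, s)) p.2 := hga.continuousAt.prodMk continuousAt_id
  have hpair0 : (fun s => (g s, s)) p.2 = p := by
    simp only [hgp]
  have hinK' : ∀ᶠ s in 𝓝 p.2, (g s, s) ∈ K' := by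
    have : interior K' ∈ 𝓝 ((fun s => (g s, s)) p.2) := by
      rw [hpair0]; exact isOpen_interior.mem_nhds (hKK' hpK)
    filter_upwards [hpair.preimage_mem_nhds this] with s hs using interior_subset hs
  have hq1' : ∀ᶠ s in 𝓝 p.2, 0 ≤ (G₁ (g s)).re := by
    have hcont : ContinuousAt (fun s => (G₁ (g s)).re) p.2 := by
      have h1 : ContinuousAt G₁ (g p.2) := by rw [hgp]; exact (hG₁ p.1 hpU.1).continuousAt
      exact Complex.continuous_re.continuousAt.comp (h1.comp hga.continuousAt)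
    have : 0 < (fun s => (G₁ (g s)).re) p.2 := by simp only [hgp]; exact hq1
    filter_upwards [hcont.eventually (lt_mem_nhds this)] with s hs using hs.le
  have hq2' : ∀ᶠ s in 𝓝 p.2, 0 ≤ (G₂ s).re := by
    have hcont : ContinuousAt (fun s => (G₂ s).re) p.2 :=
      Complex.continuous_re.continuousAt.comp (hG₂ p.2 hpU.2).continuousAt
    filter_upwards [hcont.eventually (lt_mem_nhds hq2)] with s hs using hs.le
  -- the one-variable function
  have hPg : ∀ᶠ s in 𝓝 p.2, ‖P (g s, s)‖ ≤ ‖P p‖ := by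
    filter_upwards [hgf, hinK', hq1', hq2'] with s h1 h2 h3 h4
    by_cases hsK : (g s, s) ∈ K
    · have : (g s, s) ∈ S := ⟨hsK, h1, h3, h4⟩
      rw [hpv]
      exact hp₁max this
    · have h5 := hAout (g s) (hK'U h2).1 s (hK'U h2).2 h1 h3 h4 hsK
      have h6 := hPA _ h2
      have h7 : ‖A (g s, s)‖ ^ m ≤ 1 := pow_le_one₀ (norm_nonneg _) h5
      linarith
  have hPan : AnalyticAt ℂ (fun s => P (g s, s)) p.2 := by
    have a1 : AnalyticAt ℂ (fun s => G₁ (g s)) p.2 := by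
      have : AnalyticAt ℂ G₁ (g p.2) := by rw [hgp]; exact hG₁ p.1 hpU.1
      exact this.comp hga
    have a2 : AnalyticAt ℂ G₂ p.2 := hG₂ p.2 hpU.2
    have a3 : AnalyticAt ℂ (fun s => h₁ (g s)) p.2 := by
      have : AnalyticAt ℂ h₁ (g p.2) := by rw [hgp]; exact hh₁ p.1 hpU.1
      exact this.comp hga
    have a4 : AnalyticAt ℂ h₂ p.2 := hh₂ p.2 hpU.2
    have a5 : AnalyticAt ℂ (fun s => deriv f₁ (g s)) p.2 := by
      have : AnalyticAt ℂ (deriv f₁) (g p.2) := by rw [hgp]; exact hf₁' p.1 hpU.1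
      exact this.comp hga
    have a6 : AnalyticAt ℂ (fun s => Complex.exp (N * (G₁ (g s) + G₂ s - 1))) p.2 :=
      (analyticAt_const.mul ((a1.add a2).sub analyticAt_const)).cexp
    have a7 : AnalyticAt ℂ (fun s => A (g s, s)) p.2 := by
      have := (a6.mul (a3.sub a4)).div_const (c := (C : ℂ))
      exact this
    exact (a7.pow m).mul (a5.div_const (c := (M : ℂ)))
  have hmaxmod : ∀ᶠ s in 𝓝 p.2, ‖P (g s, s)‖ = ‖P (g p.2, p.2)‖ := by
    apply Complex.norm_eventually_eq_of_isLocalMax (f := fun s => P (g s, s))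
    · filter_upwards [hPan.eventually_analyticAt] with s hs using hs.differentiableAt
    · have e : P (g p.2, p.2) = P p := by rw [hgp]
      simp only [IsLocalMax, IsMaxFilter, Function.comp]
      rw [e]
      exact hPg
  have hfin : ∀ᶠ s in 𝓝 p.2, s.re ≤ p.2.re := by
    filter_upwards [hmaxmod, hgf, hinK', hq1', hq2'] with s h0 h1 h2 h3 h4
    have e : P (g p.2, p.2) = P p := by rw [hgp]
    rw [e] at h0
    have hsK : (g s, s) ∈ K := by
      by_contra hsK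
      have h5 := hAout (g s) (hK'U h2).1 s (hK'U h2).2 h1 h3 h4 hsK
      have h6 := hPA _ h2
      have h7 : ‖A (g s, s)‖ ^ m ≤ 1 := pow_le_one₀ (norm_nonneg _) h5
      linarith
    have hsT : (g s, s) ∈ T := by
      refine ⟨⟨hsK, h1, h3, h4⟩, ?_⟩
      change ‖P (g s, s)‖ = ‖P p₁‖
      rw [h0, hpv]
    exact hpmax hsT
  -- contradiction
  obtain ⟨ε, hε, hball⟩ := Metric.eventually_nhds_iff.mp hfin
  have := hball (y := p.2 + ((ε / 2 : ℝ) : ℂ)) (by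
    simp only [dist_eq_norm, add_sub_cancel_left, Complex.norm_real, Real.norm_eq_abs]
    rw [abs_of_pos (by positivity)]; linarith)
  simp at this
  linarith

end Vale.Agent.P097.H311.UQ
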